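import Mathlib

namespace Vale.Agent.Results.P102.UnbalancedGaps

open MeasureTheory Filter Topology
open scoped symmDiff

variable {Ω : Type*} [MeasurableSpace Ω]

/-- `T` is (strongly) mixing for `μ`: correlations of any two measurable sets decay. -/
def IsMixing (μ : Measure Ω) (T : Ω → Ω) : Prop :=
  ∀ A B : Set Ω, MeasurableSet A → MeasurableSet B →
    Tendsto (fun n : ℕ => μ.real (A ∩ T^[n] ⁻¹' B)) atTop (𝓝 (μ.real A * μ.real B))

omit [MeasurableSpace Ω] in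
theorem inter3_symmDiff_subset (A B C A' B' C' : Set Ω) :
    (A ∩ B ∩ C) ∆ (A' ∩ B' ∩ C') ⊆ (A ∆ A') ∪ (B ∆ B') ∪ (C ∆ C') := by
  intro x hx
  simp only [Set.mem_symmDiff, Set.mem_inter_iff, Set.mem_union] at hx ⊢
  tauto

theorem approx3 (μ : Measure Ω) [IsProbabilityMeasure μ] (A B C A' B' C' : Set Ω)
    (hA : MeasurableSet A) (hB : MeasurableSet B) (hC : MeasurableSet C)
    (hA' : MeasurableSet A') (hB' : MeasurableSet B') (hC' : MeasurableSet C') :
    |μ.real (A ∩ B ∩ C) - μ.real (A' ∩ B' ∩ C')| ≤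
      μ.real (A ∆ A') + μ.real (B ∆ B') + μ.real (C ∆ C') := by
  calc |μ.real (A ∩ B ∩ C) - μ.real (A' ∩ B' ∩ C')|
      ≤ μ.real ((A ∩ B ∩ C) ∆ (A' ∩ B' ∩ C')) :=
        abs_measureReal_sub_le_measureReal_symmDiff ((hA.inter hB).inter hC).nullMeasurableSet
          ((hA'.inter hB').inter hC').nullMeasurableSet
    _ ≤ μ.real ((A ∆ A') ∪ (B ∆ B') ∪ (C ∆ C')) :=
        measureReal_mono (inter3_symmDiff_subset A B C A' B' C')
    _ ≤ μ.real ((A ∆ A') ∪ (B ∆ B')) + μ.real (C ∆ C') := measureReal_union_le _ _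
    _ ≤ μ.real (A ∆ A') + μ.real (B ∆ B') + μ.real (C ∆ C') := by
        gcongr; exact measureReal_union_le _ _

theorem prod3_close (a b c a' b' c' η : ℝ) (ha : 0 ≤ a ∧ a ≤ 1) (hb : 0 ≤ b ∧ b ≤ 1)
    (_hc : 0 ≤ c ∧ c ≤ 1) (_ha' : 0 ≤ a' ∧ a' ≤ 1) (hb' : 0 ≤ b' ∧ b' ≤ 1) (hc' : 0 ≤ c' ∧ c' ≤ 1)
    (h1 : |a - a'| ≤ η) (h2 : |b - b'| ≤ η) (h3 : |c - c'| ≤ η) :
    |a' * b' * c' - a * b * c| ≤ 3 * η := by
  have e : a' * b' * c' - a * b * c
      = (a' - a) * (b' * c') + a * ((b' - b) * c') + a * b * (c' - c) := by ring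
  rw [e]
  have t1 : |(a' - a) * (b' * c')| ≤ η := by
    rw [abs_mul, abs_sub_comm]
    have : |b' * c'| ≤ 1 := by
      rw [abs_of_nonneg (mul_nonneg hb'.1 hc'.1)]
      nlinarith [hb'.1, hb'.2, hc'.1, hc'.2]
    calc |a - a'| * |b' * c'| ≤ η * 1 := mul_le_mul h1 this (abs_nonneg _) (le_trans (abs_nonneg _) h1)
      _ = η := mul_one _
  have t2 : |a * ((b' - b) * c')| ≤ η := by
    rw [abs_mul, abs_mul, abs_sub_comm, abs_of_nonneg ha.1, abs_of_nonneg hc'.1]
    have hη : 0 ≤ η := le_trans (abs_nonneg _) h2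
    calc a * (|b - b'| * c') ≤ 1 * (η * 1) := by
          apply mul_le_mul ha.2 _ (mul_nonneg (abs_nonneg _) hc'.1) zero_le_one
          exact mul_le_mul h2 hc'.2 hc'.1 hη
      _ = η := by ring
  have t3 : |a * b * (c' - c)| ≤ η := by
    rw [abs_mul, abs_sub_comm, abs_of_nonneg (mul_nonneg ha.1 hb.1)]
    have hη : 0 ≤ η := le_trans (abs_nonneg _) h3
    have : a * b ≤ 1 := by nlinarith [ha.1, ha.2, hb.1, hb.2]
    calc a * b * |c - c'| ≤ 1 * η := mul_le_mul this h3 (abs_nonneg _) zero_le_one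
      _ = η := one_mul _
  calc |(a' - a) * (b' * c') + a * ((b' - b) * c') + a * b * (c' - c)|
      ≤ |(a' - a) * (b' * c')| + |a * ((b' - b) * c')| + |a * b * (c' - c)| := abs_add_three _ _ _
    _ ≤ 3 * η := by linarith

/-- One-sided statement, valid for any measure-preserving mixing map. -/
theorem forward (μ : Measure Ω) [IsProbabilityMeasure μ] [IsSeparable μ] (T : Ω → Ω)
    (hT : MeasurePreserving T μ μ) (hmix : IsMixing μ T) :
    ∃ φ : ℕ → ℕ, ∀ A B C : Set Ω, MeasurableSet A → MeasurableSet B → MeasurableSet C →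
      ∀ ε : ℝ, 0 < ε → ∃ N : ℕ, ∀ n : ℕ, N ≤ n → ∀ m : ℕ, φ n ≤ m →
        |μ.real (A ∩ T^[n] ⁻¹' B ∩ T^[m] ⁻¹' C) - μ.real A * μ.real B * μ.real C| < ε := by
  obtain ⟨𝒜, hcount, hdense⟩ := exists_countable_measureDense μ
  obtain ⟨D, hD⟩ := hcount.exists_eq_range hdense.nonempty
  have hDm : ∀ i, MeasurableSet (D i) := fun i => hdense.measurable _ (by rw [hD]; exact ⟨i, rfl⟩)
  have hTn : ∀ n, MeasurePreserving (T^[n]) μ μ := fun n => hT.iterate n
  have hpre : ∀ n (E : Set Ω), MeasurableSet E → MeasurableSet (T^[n] ⁻¹' E) :=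
    fun n E hE => (hTn n).measurable hE
  -- choice of the gap function
  have hchoice : ∀ n : ℕ, ∃ M : ℕ, ∀ m : ℕ, M ≤ m → ∀ i ∈ Finset.range (n + 1),
      ∀ j ∈ Finset.range (n + 1), ∀ l ∈ Finset.range (n + 1),
      |μ.real (D i ∩ T^[n] ⁻¹' D j ∩ T^[m] ⁻¹' D l) - μ.real (D i ∩ T^[n] ⁻¹' D j) * μ.real (D l)|
        < 1 / ((n : ℝ) + 1) := by
    intro n
    have hpos : (0 : ℝ) < 1 / ((n : ℝ) + 1) := by positivity
    have : ∀ᶠ m : ℕ in atTop, ∀ i ∈ Finset.range (n + 1),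
      ∀ j ∈ Finset.range (n + 1), ∀ l ∈ Finset.range (n + 1),
      |μ.real (D i ∩ T^[n] ⁻¹' D j ∩ T^[m] ⁻¹' D l) - μ.real (D i ∩ T^[n] ⁻¹' D j) * μ.real (D l)|
        < 1 / ((n : ℝ) + 1) := by
      rw [Filter.eventually_all_finset]
      intro i _
      rw [Filter.eventually_all_finset]
      intro j _
      rw [Filter.eventually_all_finset]
      intro l _
      have h := hmix (D i ∩ T^[n] ⁻¹' D j) (D l) ((hDm i).inter (hpre n _ (hDm j))) (hDm l)
      rw [Metric.tendsto_atTop] at h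
      obtain ⟨M, hM⟩ := h _ hpos
      filter_upwards [Filter.eventually_ge_atTop M] with m hm
      have := hM m hm
      rwa [Real.dist_eq] at this
    exact Filter.eventually_atTop.mp this
  choose φ hφ using hchoice
  refine ⟨φ, ?_⟩
  intro A B C hA hB hC ε hε
  set η : ℝ := ε / 10 with hη
  have hηpos : 0 < η := by positivity
  -- approximate the three sets
  have happ : ∀ E : Set Ω, MeasurableSet E → ∃ i, μ.real (E ∆ D i) ≤ η := by
    intro E hE
    obtain ⟨t, ht, hlt⟩ := hdense.approx E hE (measure_ne_top μ E) η hηpos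
    rw [hD] at ht
    obtain ⟨i, rfl⟩ := ht
    refine ⟨i, ?_⟩
    rw [measureReal_def]
    exact ENNReal.toReal_le_of_le_ofReal hηpos.le hlt.le
  obtain ⟨i, hi⟩ := happ A hA
  obtain ⟨j, hj⟩ := happ B hB
  obtain ⟨l, hl⟩ := happ C hC
  have h2 := hmix (D i) (D j) (hDm i) (hDm j)
  rw [Metric.tendsto_atTop] at h2
  obtain ⟨N2, hN2⟩ := h2 η hηpos
  obtain ⟨N3, hN3⟩ := exists_nat_gt (1 / η)
  refine ⟨max (max i j) (max l (max N2 N3)), ?_⟩
  intro n hn m hm
  have hin : i ∈ Finset.range (n + 1) := by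
    rw [Finset.mem_range]; have := le_trans (le_trans (le_max_left i j) (le_max_left _ _)) hn; omega
  have hjn : j ∈ Finset.range (n + 1) := by
    rw [Finset.mem_range]; have := le_trans (le_trans (le_max_right i j) (le_max_left _ _)) hn; omega
  have hln : l ∈ Finset.range (n + 1) := by
    rw [Finset.mem_range]; have := le_trans (le_trans (le_max_left l _) (le_max_right _ _)) hn; omega
  have hN2n : N2 ≤ n :=
    le_trans (le_trans (le_trans (le_max_left N2 N3) (le_max_right l _)) (le_max_right _ _)) hn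
  have hN3n : N3 ≤ n :=
    le_trans (le_trans (le_trans (le_max_right N2 N3) (le_max_right l _)) (le_max_right _ _)) hn
  have s1 := hφ n m hm i hin j hjn l hln
  have s1' : 1 / ((n : ℝ) + 1) ≤ η := by
    have h5 : 1 / η < (n : ℝ) + 1 := by
      have : (N3 : ℝ) ≤ n := by exact_mod_cast hN3n
      linarith
    rw [div_le_iff₀ (by positivity)]
    rw [div_lt_iff₀ hηpos] at h5
    linarith
  have s2 : |μ.real (D i ∩ T^[n] ⁻¹' D j) - μ.real (D i) * μ.real (D j)| < η := by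
    have := hN2 n hN2n
    rwa [Real.dist_eq] at this
  have s3 := approx3 μ A (T^[n] ⁻¹' B) (T^[m] ⁻¹' C) (D i) (T^[n] ⁻¹' D j) (T^[m] ⁻¹' D l)
    hA (hpre n _ hB) (hpre m _ hC) (hDm i) (hpre n _ (hDm j)) (hpre m _ (hDm l))
  have hsd : ∀ k (E F : Set Ω), MeasurableSet E → MeasurableSet F →
      μ.real ((T^[k] ⁻¹' E) ∆ (T^[k] ⁻¹' F)) = μ.real (E ∆ F) := by
    intro k E F hE hF
    rw [← Set.preimage_symmDiff]
    exact (hTn k).measureReal_preimage (hE.symmDiff hF).nullMeasurableSet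
  rw [hsd n B (D j) hB (hDm j), hsd m C (D l) hC (hDm l)] at s3
  have b01 : ∀ E : Set Ω, 0 ≤ μ.real E ∧ μ.real E ≤ 1 :=
    fun E => ⟨measureReal_nonneg, measureReal_le_one⟩
  have hab : ∀ E F : Set Ω, MeasurableSet E → MeasurableSet F →
      |μ.real E - μ.real F| ≤ μ.real (E ∆ F) := fun E F hE hF =>
    abs_measureReal_sub_le_measureReal_symmDiff hE.nullMeasurableSet hF.nullMeasurableSet
  have s4 := prod3_close (μ.real A) (μ.real B) (μ.real C) (μ.real (D i)) (μ.real (D j))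
    (μ.real (D l)) η (b01 _) (b01 _) (b01 _) (b01 _) (b01 _) (b01 _)
    (le_trans (hab _ _ hA (hDm i)) hi) (le_trans (hab _ _ hB (hDm j)) hj)
    (le_trans (hab _ _ hC (hDm l)) hl)
  have s5 : |μ.real (D i ∩ T^[n] ⁻¹' D j) * μ.real (D l) - μ.real (D i) * μ.real (D j) * μ.real (D l)|
      ≤ η := by
    rw [← sub_mul, abs_mul, abs_of_nonneg (b01 (D l)).1]
    calc |μ.real (D i ∩ T^[n] ⁻¹' D j) - μ.real (D i) * μ.real (D j)| * μ.real (D l)
        ≤ η * 1 := mul_le_mul s2.le (b01 _).2 (b01 _).1 hηpos.le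
      _ = η := mul_one _
  have key : μ.real (A ∩ T^[n] ⁻¹' B ∩ T^[m] ⁻¹' C) - μ.real A * μ.real B * μ.real C
      = (μ.real (A ∩ T^[n] ⁻¹' B ∩ T^[m] ⁻¹' C) - μ.real (D i ∩ T^[n] ⁻¹' D j ∩ T^[m] ⁻¹' D l))
      + (μ.real (D i ∩ T^[n] ⁻¹' D j ∩ T^[m] ⁻¹' D l) - μ.real (D i ∩ T^[n] ⁻¹' D j) * μ.real (D l))
      + (μ.real (D i ∩ T^[n] ⁻¹' D j) * μ.real (D l) - μ.real (D i) * μ.real (D j) * μ.real (D l))
      + (μ.real (D i) * μ.real (D j) * μ.real (D l) - μ.real A * μ.real B * μ.real C) := by ring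
  rw [key]
  have tri : ∀ p q r s : ℝ, |p + q + r + s| ≤ |p| + |q| + |r| + |s| := by
    intro p q r s
    calc |p + q + r + s| ≤ |p + q + r| + |s| := abs_add_le _ _
      _ ≤ |p| + |q| + |r| + |s| := by gcongr; exact abs_add_three _ _ _
  refine lt_of_le_of_lt (tri _ _ _ _) ?_
  have : ε = 10 * η := by rw [hη]; ring
  linarith

theorem iter_cancel (T : Ω ≃ᵐ Ω) (k : ℕ) (x : Ω) : (⇑T)^[k] ((⇑T.symm)^[k] x) = x :=
  (Function.LeftInverse.iterate (fun y => T.apply_symm_apply y) k) x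

theorem iter_cancel' (T : Ω ≃ᵐ Ω) (k : ℕ) (x : Ω) : (⇑T.symm)^[k] ((⇑T)^[k] x) = x :=
  (Function.LeftInverse.iterate (fun y => T.symm_apply_apply y) k) x

/-- The inverse of an invertible mixing transformation is mixing. -/
theorem mixing_symm (μ : Measure Ω) [IsProbabilityMeasure μ] (T : Ω ≃ᵐ Ω)
    (hT : MeasurePreserving T μ μ) (hmix : IsMixing μ T) : IsMixing μ T.symm := by
  intro A B hA hB
  have h := hmix B A hB hA
  have hS : MeasurePreserving T.symm μ μ := hT.symm T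
  have e : ∀ n : ℕ, μ.real (A ∩ (⇑T.symm)^[n] ⁻¹' B) = μ.real (B ∩ (⇑T)^[n] ⁻¹' A) := by
    intro n
    have hm : MeasurableSet (A ∩ (⇑T.symm)^[n] ⁻¹' B) :=
      hA.inter ((hS.iterate n).measurable hB)
    rw [← (hT.iterate n).measureReal_preimage hm.nullMeasurableSet]
    congr 1
    ext x
    simp only [Set.mem_preimage, Set.mem_inter_iff, iter_cancel']
    tauto
  simp_rw [e]
  rw [mul_comm]
  exact h

/-- Every invertible mixing transformation of a separable probability space is mixing of order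
three along all time configurations `0 < a < a + b` whose two gaps `a`, `b` are sufficiently
unbalanced: there is one function `φ`, depending only on the system, such that the order-three
convergence holds for all triples of sets as `min a b → ∞` subject to `φ a ≤ b` or `φ b ≤ a`. -/
theorem result (μ : Measure Ω) [IsProbabilityMeasure μ] [IsSeparable μ] (T : Ω ≃ᵐ Ω)
    (hT : MeasurePreserving T μ μ) (hmix : IsMixing μ T) :
    ∃ φ : ℕ → ℕ, ∀ A B C : Set Ω, MeasurableSet A → MeasurableSet B → MeasurableSet C →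
      ∀ ε : ℝ, 0 < ε → ∃ N : ℕ, ∀ a b : ℕ, N ≤ a → N ≤ b → (φ a ≤ b ∨ φ b ≤ a) →
        |μ.real (A ∩ (⇑T)^[a] ⁻¹' B ∩ (⇑T)^[a + b] ⁻¹' C) - μ.real A * μ.real B * μ.real C|
          < ε := by
  have hS : MeasurePreserving T.symm μ μ := hT.symm T
  obtain ⟨φ1, h1⟩ := forward μ T hT hmix
  obtain ⟨φ2, h2⟩ := forward μ T.symm hS (mixing_symm μ T hT hmix)
  refine ⟨fun n => max (φ1 n) (φ2 n), ?_⟩
  intro A B C hA hB hC ε hε
  obtain ⟨N1, hN1⟩ := h1 A B C hA hB hC ε hε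
  obtain ⟨N2, hN2⟩ := h2 C B A hC hB hA ε hε
  refine ⟨max N1 N2, ?_⟩
  intro a b ha hb hab
  rcases hab with hab | hab
  · exact hN1 a (le_trans (le_max_left _ _) ha) (a + b)
      (le_trans (le_trans (le_max_left _ _) hab) (Nat.le_add_left b a))
  · have h3 := hN2 b (le_trans (le_max_right _ _) hb) (a + b)
      (le_trans (le_trans (le_max_right _ _) hab) (Nat.le_add_right a b))
    have e : μ.real (A ∩ (⇑T)^[a] ⁻¹' B ∩ (⇑T)^[a + b] ⁻¹' C)
        = μ.real (C ∩ (⇑T.symm)^[b] ⁻¹' B ∩ (⇑T.symm)^[a + b] ⁻¹' A) := by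
      have hm : MeasurableSet (A ∩ (⇑T)^[a] ⁻¹' B ∩ (⇑T)^[a + b] ⁻¹' C) :=
        (hA.inter ((hT.iterate a).measurable hB)).inter ((hT.iterate (a + b)).measurable hC)
      rw [← (hS.iterate (a + b)).measureReal_preimage hm.nullMeasurableSet]
      congr 1
      ext x
      have e1 : (⇑T)^[a] ((⇑T.symm)^[a + b] x) = (⇑T.symm)^[b] x := by
        rw [Function.iterate_add_apply, iter_cancel]
      simp only [Set.mem_preimage, Set.mem_inter_iff, iter_cancel, e1]
      tauto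
    rw [e]
    have e2 : μ.real A * μ.real B * μ.real C = μ.real C * μ.real B * μ.real A := by ring
    rw [e2]
    exact h3

end Vale.Agent.Results.P102.UnbalancedGaps
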